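import Vale.Agent.Helper16.KTV.Defs3

/-!
# P335 module C4, counting side: uniformity and cardinality of pure-product systems
-/

namespace KTV
open Finset

variable {ι : Type*} [Fintype ι] [DecidableEq ι] {τ : Type*} [Fintype τ] [DecidableEq τ]

omit [Fintype τ] in
/-- Two sets with the same number of columns of each type are carried to each other by a
type-preserving permutation. -/
theorem exists_perm_of_type_counts (t : ι → τ) (A B : Finset ι)
    (h : ∀ a, (A.filter fun j => t j = a).card = (B.filter fun j => t j = a).card) :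
    ∃ π : Equiv.Perm ι, (∀ j, t (π j) = t j) ∧ ∀ j, π j ∈ B ↔ j ∈ A := by
  classical
  let f : ι → τ × Bool := fun j => (t j, decide (j ∈ A))
  let g : ι → τ × Bool := fun j => (t j, decide (j ∈ B))
  have hcard : ∀ c : τ × Bool, Fintype.card {j // f j = c} = Fintype.card {j // g j = c} := by
    rintro ⟨a, b⟩
    rw [Fintype.card_subtype, Fintype.card_subtype]
    have hA1 : (univ.filter fun j => f j = (a, true)) = A.filter fun j => t j = a := by
      ext j; simp [f, and_comm]
    have hB1 : (univ.filter fun j => g j = (a, true)) = B.filter fun j => t j = a := by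
      ext j; simp [g, and_comm]
    have hA0 : (univ.filter fun j => f j = (a, false)) =
        (univ.filter fun j => t j = a) \ (A.filter fun j => t j = a) := by
      ext j; simp [f]; tauto
    have hB0 : (univ.filter fun j => g j = (a, false)) =
        (univ.filter fun j => t j = a) \ (B.filter fun j => t j = a) := by
      ext j; simp [g]; tauto
    cases b
    · rw [hA0, hB0, Finset.card_sdiff_of_subset, Finset.card_sdiff_of_subset, h a]
      · intro j hj; simp at hj ⊢; exact hj.2
      · intro j hj; simp at hj ⊢; exact hj.2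
    · rw [hA1, hB1, h a]
  let π : ι ≃ ι := Equiv.ofFiberEquiv (fun c => Fintype.equivOfCardEq (hcard c))
  have hπ : ∀ j, g (π j) = f j := fun j => Equiv.ofFiberEquiv_map _ j
  refine ⟨π, fun j => ?_, fun j => ?_⟩
  · have := congrArg Prod.fst (hπ j)
    simpa [f, g] using this
  · have := congrArg Prod.snd (hπ j)
    simpa [f, g] using this

/-- (ii) uniformity: in a pure-product system the number of colourings with a given colour
class `A` depends only on the type counts of `A`. -/
theorem pp_card_cls_eq (t : ι → τ) (n : τ → Fin 3 → ℕ) (r : Fin 3) (A B : Finset ι)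
    (hA : ∀ a, (A.filter fun j => t j = a).card = n a r)
    (hB : ∀ a, (B.filter fun j => t j = a).card = n a r) :
    ((OmegaPP t n).filter fun σ => cls r σ = A).card =
      ((OmegaPP t n).filter fun σ => cls r σ = B).card := by
  classical
  obtain ⟨π, hπt, hπB⟩ := exists_perm_of_type_counts t A B (fun a => by rw [hA a, hB a])
  refine Finset.card_equiv (π.arrowCongr (Equiv.refl (Fin 3))) (fun σ => ?_)
  have hΦ : ∀ j, (π.arrowCongr (Equiv.refl (Fin 3))) σ j = σ (π.symm j) := fun j => rfl
  simp only [Finset.mem_filter, OmegaPP, Finset.mem_univ, true_and]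
  have hcount : ∀ a r', (univ.filter fun j => t j = a ∧
      (π.arrowCongr (Equiv.refl (Fin 3))) σ j = r').card =
      (univ.filter fun j => t j = a ∧ σ j = r').card := by
    intro a r'
    symm
    refine Finset.card_equiv π (fun j => ?_)
    simp only [Finset.mem_filter, Finset.mem_univ, true_and, hΦ, Equiv.symm_apply_apply, hπt]
  have hcls : cls r ((π.arrowCongr (Equiv.refl (Fin 3))) σ) = B ↔ cls r σ = A := by
    constructor
    · intro h
      ext j
      have : π j ∈ cls r ((π.arrowCongr (Equiv.refl (Fin 3))) σ) ↔ π j ∈ B := by rw [h]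
      simp only [cls, Finset.mem_filter, Finset.mem_univ, true_and, hΦ,
        Equiv.symm_apply_apply] at this
      simp only [cls, Finset.mem_filter, Finset.mem_univ, true_and]
      rw [this, hπB]
    · intro h
      ext j
      have : π.symm j ∈ cls r σ ↔ π.symm j ∈ A := by rw [h]
      simp only [cls, Finset.mem_filter, Finset.mem_univ, true_and] at this
      simp only [cls, Finset.mem_filter, Finset.mem_univ, true_and, hΦ]
      rw [this, ← hπB, Equiv.apply_symm_apply]
  constructor
  · rintro ⟨h1, h2⟩
    exact ⟨fun a r' => by rw [hcount, h1], hcls.mpr h2⟩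
  · rintro ⟨h1, h2⟩
    exact ⟨fun a r' => by rw [← hcount, h1], hcls.mp h2⟩

/-- The sets of columns with `m a` columns of each type `a`. -/
def typeSets (t : ι → τ) (m : τ → ℕ) : Finset (Finset ι) :=
  univ.filter fun A => ∀ a, (A.filter fun j => t j = a).card = m a

theorem cls_mem_typeSets (t : ι → τ) (n : τ → Fin 3 → ℕ) (r : Fin 3) {σ : ι → Fin 3}
    (hσ : σ ∈ OmegaPP t n) : cls r σ ∈ typeSets t (fun a => n a r) := by
  simp only [typeSets, Finset.mem_filter, Finset.mem_univ, true_and]
  intro a
  simp only [OmegaPP, Finset.mem_filter, Finset.mem_univ, true_and] at hσ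
  rw [← hσ a r]
  congr 1
  ext j
  simp [cls, and_comm]

/-- (ii-sum) In a pure-product system the sum of a function of the colour class `r` is the
number of colourings times the average of the function over the sets with the right type
counts. This is hypothesis `hc` of the chain rule on a fibre. -/
theorem pp_sum_cls (t : ι → τ) (n : τ → Fin 3 → ℕ) (r : Fin 3) (G : Finset ι → ℝ) :
    ∑ σ ∈ OmegaPP t n, G (cls r σ) =
      ((OmegaPP t n).card : ℝ) *
        ((∑ A ∈ typeSets t (fun a => n a r), G A) / ((typeSets t (fun a => n a r)).card : ℝ)) := by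
  classical
  set 𝒜 := typeSets t (fun a => n a r) with h𝒜
  have hmaps : ∀ σ ∈ OmegaPP t n, cls r σ ∈ 𝒜 := fun σ hσ => cls_mem_typeSets t n r hσ
  rcases 𝒜.eq_empty_or_nonempty with hemp | ⟨A0, hA0⟩
  · have hΩ : OmegaPP t n = ∅ := by
      rw [Finset.eq_empty_iff_forall_notMem]
      intro σ hσ
      have := hmaps σ hσ
      rw [hemp] at this
      exact absurd this (Finset.notMem_empty _)
    rw [hΩ]; simp
  · set c := ((OmegaPP t n).filter fun σ => cls r σ = A0).card with hc
    have hconst : ∀ A ∈ 𝒜, ((OmegaPP t n).filter fun σ => cls r σ = A).card = c := by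
      intro A hA
      have hA' : ∀ a, (A.filter fun j => t j = a).card = n a r := by
        simpa [h𝒜, typeSets] using hA
      have hA0' : ∀ a, (A0.filter fun j => t j = a).card = n a r := by
        simpa [h𝒜, typeSets] using hA0
      exact pp_card_cls_eq t n r A A0 hA' hA0'
    have hsum : ∑ σ ∈ OmegaPP t n, G (cls r σ) = (c : ℝ) * ∑ A ∈ 𝒜, G A := by
      rw [← Finset.sum_fiberwise_of_maps_to hmaps, Finset.mul_sum]
      refine Finset.sum_congr rfl (fun A hA => ?_)
      have : ∀ σ ∈ (OmegaPP t n).filter (fun σ => cls r σ = A), G (cls r σ) = G A := by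
        intro σ hσ
        rw [(Finset.mem_filter.mp hσ).2]
      rw [Finset.sum_congr rfl this, Finset.sum_const, nsmul_eq_mul, hconst A hA]
    have hcard : ((OmegaPP t n).card : ℝ) = (𝒜.card : ℝ) * (c : ℝ) := by
      rw [Finset.card_eq_sum_card_fiberwise hmaps, Finset.sum_congr rfl hconst,
        Finset.sum_const, smul_eq_mul]
      push_cast
      ring
    have hpos : (0 : ℝ) < (𝒜.card : ℝ) := by
      exact_mod_cast Finset.card_pos.mpr ⟨A0, hA0⟩
    rw [hsum, hcard]
    field_simp

omit [DecidableEq ι] in
/-- Two functions with the same fibre cardinalities differ by a permutation of the domain. -/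
theorem exists_perm_of_fibre_card {κ : Type*} [DecidableEq κ] (f g : ι → κ)
    (h : ∀ c, (univ.filter fun j => f j = c).card = (univ.filter fun j => g j = c).card) :
    ∃ π : Equiv.Perm ι, ∀ j, g (π j) = f j := by
  classical
  have hcard : ∀ c : κ, Fintype.card {j // f j = c} = Fintype.card {j // g j = c} := by
    intro c
    rw [Fintype.card_subtype, Fintype.card_subtype]
    exact h c
  exact ⟨Equiv.ofFiberEquiv (fun c => Fintype.equivOfCardEq (hcard c)),
    fun j => Equiv.ofFiberEquiv_map _ j⟩

/-- A pure-product system with consistent counts is nonempty. -/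
theorem pp_nonempty (t : ι → τ) (n : τ → Fin 3 → ℕ)
    (h : ∀ a, ∑ r, n a r = (univ.filter fun j => t j = a).card) : (OmegaPP t n).Nonempty := by
  classical
  have h3 : ∀ a, n a 0 + n a 1 + n a 2 = (univ.filter fun j => t j = a).card := by
    intro a; rw [← h a, Fin.sum_univ_three]
  have ex0 : ∀ a, ∃ A ⊆ (univ.filter fun j => t j = a), A.card = n a 0 := fun a =>
    Finset.exists_subset_card_eq (by have := h3 a; omega)
  choose A0 hA0s hA0c using ex0
  have ex1 : ∀ a, ∃ A ⊆ (univ.filter fun j => t j = a) \ A0 a, A.card = n a 1 := fun a =>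
    Finset.exists_subset_card_eq (by
      rw [Finset.card_sdiff_of_subset (hA0s a), hA0c a]; have := h3 a; omega)
  choose A1 hA1s hA1c using ex1
  refine ⟨fun j => if j ∈ A0 (t j) then 0 else if j ∈ A1 (t j) then 1 else 2, ?_⟩
  simp only [OmegaPP, Finset.mem_filter, Finset.mem_univ, true_and]
  intro a r
  have hA1T : A1 a ⊆ univ.filter fun j => t j = a :=
    fun j hj => (Finset.mem_sdiff.mp (hA1s a hj)).1
  have hdisj : Disjoint (A0 a) (A1 a) := by
    rw [Finset.disjoint_left]
    intro j hj0 hj1
    exact (Finset.mem_sdiff.mp (hA1s a hj1)).2 hj0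
  have e0 : (univ.filter fun j => t j = a ∧
      (if j ∈ A0 (t j) then (0 : Fin 3) else if j ∈ A1 (t j) then 1 else 2) = 0) = A0 a := by
    ext j
    simp only [Finset.mem_filter, Finset.mem_univ, true_and]
    constructor
    · rintro ⟨rfl, hj⟩
      by_contra hn
      rw [if_neg hn] at hj
      split_ifs at hj <;> simp at hj
    · intro hj
      have htj : t j = a := by simpa using hA0s a hj
      subst htj
      exact ⟨rfl, by rw [if_pos hj]⟩
  have e1 : (univ.filter fun j => t j = a ∧
      (if j ∈ A0 (t j) then (0 : Fin 3) else if j ∈ A1 (t j) then 1 else 2) = 1) = A1 a := by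
    ext j
    simp only [Finset.mem_filter, Finset.mem_univ, true_and]
    constructor
    · rintro ⟨rfl, hj⟩
      by_contra hn
      split_ifs at hj <;> simp at hj
    · intro hj
      have htj : t j = a := by simpa using hA1T hj
      subst htj
      have hn0 : j ∉ A0 (t j) := (Finset.mem_sdiff.mp (hA1s _ hj)).2
      exact ⟨rfl, by rw [if_neg hn0, if_pos hj]⟩
  have e2 : (univ.filter fun j => t j = a ∧
      (if j ∈ A0 (t j) then (0 : Fin 3) else if j ∈ A1 (t j) then 1 else 2) = 2) =
      (univ.filter fun j => t j = a) \ (A0 a ∪ A1 a) := by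
    ext j
    simp only [Finset.mem_filter, Finset.mem_univ, true_and, Finset.mem_sdiff, Finset.mem_union]
    constructor
    · rintro ⟨rfl, hj⟩
      refine ⟨rfl, ?_⟩
      rintro (h0 | h1)
      · rw [if_pos h0] at hj; simp at hj
      · split_ifs at hj <;> simp at hj
    · rintro ⟨rfl, hn⟩
      push Not at hn
      exact ⟨rfl, by rw [if_neg hn.1, if_neg hn.2]⟩
  fin_cases r
  · show (univ.filter fun j => t j = a ∧ _ = (0 : Fin 3)).card = n a 0
    rw [e0, hA0c]
  · show (univ.filter fun j => t j = a ∧ _ = (1 : Fin 3)).card = n a 1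
    rw [e1, hA1c]
  · show (univ.filter fun j => t j = a ∧ _ = (2 : Fin 3)).card = n a 2
    rw [e2, Finset.card_sdiff_of_subset (Finset.union_subset (hA0s a) hA1T),
      Finset.card_union_of_disjoint hdisj, hA0c, hA1c]
    have := h3 a
    omega

/-- (i) The number of colourings of a pure-product system with consistent counts is a product
of multinomial coefficients. -/
theorem pp_card (t : ι → τ) (n : τ → Fin 3 → ℕ)
    (h : ∀ a, ∑ r, n a r = (univ.filter fun j => t j = a).card) :
    (OmegaPP t n).card * ∏ a, ∏ r, (n a r).factorial =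
      ∏ a, ((univ.filter fun j => t j = a).card).factorial := by
  classical
  obtain ⟨σ0, hσ0⟩ := pp_nonempty t n h
  have hσ0' : ∀ a r, (univ.filter fun j => t j = a ∧ σ0 j = r).card = n a r := by
    simpa [OmegaPP] using hσ0
  -- the two stabilisers
  let L0 : ι → τ × Fin 3 := fun j => (t j, σ0 j)
  have hS : Fintype.card {g : Equiv.Perm ι // t ∘ g = t} =
      ∏ a, ((univ.filter fun j => t j = a).card).factorial := by
    rw [DomMulAct.stabilizer_card t]
    refine Finset.prod_congr rfl (fun a _ => ?_)
    rw [Fintype.card_subtype]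
  have hStab : Fintype.card {g : Equiv.Perm ι // L0 ∘ g = L0} =
      ∏ a, ∏ r, (n a r).factorial := by
    rw [DomMulAct.stabilizer_card L0, Fintype.prod_prod_type]
    refine Finset.prod_congr rfl (fun a _ => Finset.prod_congr rfl (fun r _ => ?_))
    rw [Fintype.card_subtype, ← hσ0' a r]
    congr 2
    ext j
    simp [L0]
  rw [← hS, ← hStab]
  -- the map g ↦ σ0 ∘ g
  let Ψ : {g : Equiv.Perm ι // t ∘ g = t} → (ι → Fin 3) := fun g => σ0 ∘ g.1
  have hmaps : ∀ g ∈ (univ : Finset {g : Equiv.Perm ι // t ∘ g = t}), Ψ g ∈ OmegaPP t n := by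
    intro g _
    simp only [OmegaPP, Finset.mem_filter, Finset.mem_univ, true_and]
    intro a r
    rw [← hσ0' a r]
    refine Finset.card_equiv g.1 (fun j => ?_)
    have hg : t (g.1 j) = t j := congrFun g.2 j
    simp only [Finset.mem_filter, Finset.mem_univ, true_and, Ψ, Function.comp_apply, hg]
  have hfib : ∀ σ ∈ OmegaPP t n,
      ((univ : Finset {g : Equiv.Perm ι // t ∘ g = t}).filter fun g => Ψ g = σ).card =
        Fintype.card {g : Equiv.Perm ι // L0 ∘ g = L0} := by
    intro σ hσ
    have hσ' : ∀ a r, (univ.filter fun j => t j = a ∧ σ j = r).card = n a r := by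
      simpa [OmegaPP] using hσ
    obtain ⟨g1, hg1⟩ := exists_perm_of_fibre_card (fun j => (t j, σ j)) L0 (by
      rintro ⟨a, r⟩
      have e1 : (univ.filter fun j => (t j, σ j) = (a, r)) =
          univ.filter fun j => t j = a ∧ σ j = r := by ext j; simp
      have e2 : (univ.filter fun j => L0 j = (a, r)) =
          univ.filter fun j => t j = a ∧ σ0 j = r := by ext j; simp [L0]
      rw [e1, e2, hσ' a r, hσ0' a r])
    have hg1t : ∀ j, t (g1 j) = t j := fun j => congrArg Prod.fst (hg1 j)
    have hg1σ : ∀ j, σ0 (g1 j) = σ j := fun j => congrArg Prod.snd (hg1 j)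
    rw [← Finset.card_univ]
    refine Finset.card_bij'
      (fun g hg => (⟨g.1 * g1⁻¹, ?_⟩ : {g : Equiv.Perm ι // L0 ∘ g = L0}))
      (fun k _ => (⟨k.1 * g1, ?_⟩ : {g : Equiv.Perm ι // t ∘ g = t}))
      (fun _ _ => Finset.mem_univ _) ?_ ?_ ?_
    · -- the image lies in the stabiliser of L0
      have hgσ : Ψ g = σ := (Finset.mem_filter.mp hg).2
      funext j
      have hj : g1 (g1⁻¹ j) = j := by simp
      have e1 : t (g.1 (g1⁻¹ j)) = t (g1⁻¹ j) := congrFun g.2 _
      have e2 : σ0 (g.1 (g1⁻¹ j)) = σ (g1⁻¹ j) := congrFun hgσ _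
      have e3 : t (g1⁻¹ j) = t j := by rw [← hg1t (g1⁻¹ j), hj]
      have e4 : σ (g1⁻¹ j) = σ0 j := by rw [← hg1σ (g1⁻¹ j), hj]
      show L0 ((g.1 * g1⁻¹) j) = L0 j
      show (t (g.1 (g1⁻¹ j)), σ0 (g.1 (g1⁻¹ j))) = (t j, σ0 j)
      rw [e1, e2, e3, e4]
    · -- the inverse map lands in the stabiliser of t
      funext j
      have e1 : L0 (k.1 (g1 j)) = L0 (g1 j) := congrFun k.2 _
      show t (k.1 (g1 j)) = t j
      rw [← hg1t j]
      exact congrArg Prod.fst e1
    · intro k _
      rw [Finset.mem_filter]
      refine ⟨Finset.mem_univ _, ?_⟩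
      funext j
      have e1 : L0 (k.1 (g1 j)) = L0 (g1 j) := congrFun k.2 _
      show σ0 (k.1 (g1 j)) = σ j
      rw [← hg1σ j]
      exact congrArg Prod.snd e1
    · intro g _
      apply Subtype.ext
      show g.1 * g1⁻¹ * g1 = g.1
      rw [inv_mul_cancel_right]
    · intro k _
      apply Subtype.ext
      show k.1 * g1 * g1⁻¹ = k.1
      rw [mul_inv_cancel_right]
  have hfinal : Fintype.card {g : Equiv.Perm ι // t ∘ g = t} =
      (OmegaPP t n).card * Fintype.card {g : Equiv.Perm ι // L0 ∘ g = L0} := by
    rw [← Finset.card_univ, Finset.card_eq_sum_card_fiberwise hmaps, Finset.sum_congr rfl hfib,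
      Finset.sum_const, smul_eq_mul]
  exact hfinal.symm

end KTV
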