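import Vale.Agent.Helper4.P335Squaring

/-!
# P335 module A: the squaring lemma and the gap consequence, matrix form
-/

namespace KTV
open Finset Matrix
open Vale.Agent.Helper4.P335

namespace CaputoA

theorem dotForm_eq_dotProduct {n : Type*} [Fintype n] (f g : n → ℝ) :
    dotForm n f g = f ⬝ᵥ g := rfl

theorem mulVec_symm_dot {n : Type*} [Fintype n] (M : Matrix n n ℝ) (hM : M.transpose = M)
    (f g : n → ℝ) : (M *ᵥ f) ⬝ᵥ g = f ⬝ᵥ (M *ᵥ g) := by
  rw [Matrix.dotProduct_mulVec, ← Matrix.vecMul_transpose, hM]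

/-- the sum over ordered pairs of distinct indices is twice the sum over increasing pairs -/
theorem sum_offdiag_eq {ι M : Type*} [Fintype ι] [DecidableEq ι] [LinearOrder ι] [AddCommMonoid M]
    (Q : ι → ι → M) (hsymm : ∀ i j, Q i j = Q j i) :
    ∑ i, ∑ j ∈ univ.erase i, Q i j
      = ∑ p ∈ univ.filter (fun p : ι × ι => p.1 < p.2), Q p.1 p.2
        + ∑ p ∈ univ.filter (fun p : ι × ι => p.1 < p.2), Q p.1 p.2 := by
  have h1 : ∑ i, ∑ j ∈ univ.erase i, Q i j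
      = ∑ p : ι × ι, if p.1 ≠ p.2 then Q p.1 p.2 else 0 := by
    rw [Fintype.sum_prod_type]
    refine Finset.sum_congr rfl (fun i _ => ?_)
    rw [← Finset.sum_filter]
    refine Finset.sum_congr ?_ (fun _ _ => rfl)
    ext j
    simp [eq_comm]
  have h2 : ∀ p : ι × ι, (if p.1 ≠ p.2 then Q p.1 p.2 else 0)
      = (if p.1 < p.2 then Q p.1 p.2 else 0) + (if p.2 < p.1 then Q p.1 p.2 else 0) := by
    intro p
    rcases lt_trichotomy p.1 p.2 with h | h | h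
    · simp [h, h.ne, not_lt.mpr h.le]
    · simp [h]
    · simp [h, h.ne', not_lt.mpr h.le]
  have h3 : ∑ p : ι × ι, (if p.2 < p.1 then Q p.1 p.2 else 0)
      = ∑ p : ι × ι, (if p.1 < p.2 then Q p.1 p.2 else 0) := by
    have := Equiv.sum_comp (Equiv.prodComm ι ι)
      (fun p : ι × ι => if p.2 < p.1 then Q p.1 p.2 else 0)
    rw [← this]
    refine Finset.sum_congr rfl (fun p _ => ?_)
    show (if p.1 < p.2 then Q p.2 p.1 else 0) = _
    rw [hsymm]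
  rw [h1, Finset.sum_congr rfl (fun p _ => h2 p), Finset.sum_add_distrib, h3, Finset.sum_filter]

/-- facts about two distinct pairs taken from the three increasing pairs of a triple -/
theorem blk_facts {ι : Type*} [LinearOrder ι] (i j k : ι) (hij : i < j) (hjk : j < k)
    (b1 b2 c1 c2 : ι) (hne : ¬ (b1 = c1 ∧ b2 = c2))
    (hb : (b1 = i ∧ b2 = j) ∨ (b1 = i ∧ b2 = k) ∨ (b1 = j ∧ b2 = k))
    (hb' : (c1 = i ∧ c2 = j) ∨ (c1 = i ∧ c2 = k) ∨ (c1 = j ∧ c2 = k)) :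
    (i ≤ b1 ∧ i ≤ c1 ∧ (b1 = i ∨ c1 = i)) ∧ (b2 ≤ k ∧ c2 ≤ k ∧ (b2 = k ∨ c2 = k)) ∧
      (j = b1 ∨ j = b2 ∨ j = c1 ∨ j = c2) ∧
      (∀ x, (x = b1 ∨ x = b2 ∨ x = c1 ∨ x = c2) → (x = i ∨ x = j ∨ x = k)) := by
  have hik : i < k := lt_trans hij hjk
  rcases hb with ⟨rfl, rfl⟩ | ⟨rfl, rfl⟩ | ⟨rfl, rfl⟩ <;>
  rcases hb' with ⟨rfl, rfl⟩ | ⟨rfl, rfl⟩ | ⟨rfl, rfl⟩ <;>
  first
    | exact absurd ⟨rfl, rfl⟩ hne
    | (refine ⟨⟨?_, ?_, ?_⟩, ⟨?_, ?_, ?_⟩, ?_, ?_⟩ <;>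
        first
          | exact le_refl _
          | exact hij.le
          | exact hjk.le
          | exact hik.le
          | exact Or.inl rfl
          | exact Or.inr rfl
          | exact Or.inr (Or.inl rfl)
          | exact Or.inr (Or.inr (Or.inl rfl))
          | exact Or.inr (Or.inr (Or.inr rfl))
          | (rintro x (rfl | rfl | rfl | rfl) <;>
              first
                | exact Or.inl rfl
                | exact Or.inr (Or.inl rfl)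
                | exact Or.inr (Or.inr rfl)))

/-- two distinct pairs taken from the three increasing pairs of a triple determine the triple -/
theorem blk_uniq {ι : Type*} [LinearOrder ι] (i j k i' j' k' : ι) (hij : i < j) (hjk : j < k)
    (hij' : i' < j') (hjk' : j' < k') (b1 b2 c1 c2 : ι) (hne : ¬ (b1 = c1 ∧ b2 = c2))
    (hb : (b1 = i ∧ b2 = j) ∨ (b1 = i ∧ b2 = k) ∨ (b1 = j ∧ b2 = k))
    (hb' : (c1 = i ∧ c2 = j) ∨ (c1 = i ∧ c2 = k) ∨ (c1 = j ∧ c2 = k))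
    (hbT' : (b1 = i' ∧ b2 = j') ∨ (b1 = i' ∧ b2 = k') ∨ (b1 = j' ∧ b2 = k'))
    (hb'T' : (c1 = i' ∧ c2 = j') ∨ (c1 = i' ∧ c2 = k') ∨ (c1 = j' ∧ c2 = k')) :
    i = i' ∧ j = j' ∧ k = k' := by
  obtain ⟨⟨h1, h2, h3⟩, ⟨h4, h5, h6⟩, h7, h8⟩ := blk_facts i j k hij hjk b1 b2 c1 c2 hne hb hb'
  obtain ⟨⟨h1', h2', h3'⟩, ⟨h4', h5', h6'⟩, h7', h8'⟩ :=
    blk_facts i' j' k' hij' hjk' b1 b2 c1 c2 hne hbT' hb'T'
  have hi : i = i' := by
    apply le_antisymm
    · rcases h3' with h | h <;> rw [← h] <;> assumption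
    · rcases h3 with h | h <;> rw [← h] <;> assumption
  have hk : k = k' := by
    apply le_antisymm
    · rcases h6 with h | h <;> rw [← h] <;> assumption
    · rcases h6' with h | h <;> rw [← h] <;> assumption
  refine ⟨hi, ?_, hk⟩
  rcases h8 j' h7' with h | h | h
  · exact absurd (h.trans hi) hij'.ne'
  · exact h.symm
  · exact absurd (h.trans hk) hjk'.ne

/-- the squaring lemma for an index type carrying a linear order -/
theorem caputo_sq_ord {n ι : Type*} [Fintype n] [DecidableEq n] [Fintype ι] [DecidableEq ι]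
    [LinearOrder ι]
    (Q : ι → ι → Matrix n n ℝ)
    (hsymm : ∀ i j, Q i j = Q j i)
    (hT : ∀ i j, (Q i j).transpose = Q i j)
    (hidem : ∀ i j, Q i j * Q i j = Q i j)
    (hcomm : ∀ i j k l, i ≠ j → k ≠ l → i ≠ k → i ≠ l → j ≠ k → j ≠ l →
      Q i j * Q k l = Q k l * Q i j)
    (htri : ∀ i j k, i ≠ j → i ≠ k → j ≠ k → ∀ v : n → ℝ,
      v ⬝ᵥ ((Q i j + Q i k + Q j k) *ᵥ v) ≤
        ((Q i j + Q i k + Q j k) *ᵥ v) ⬝ᵥ ((Q i j + Q i k + Q j k) *ᵥ v))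
    (v : n → ℝ) :
    2 * (v ⬝ᵥ ((∑ i, ∑ j ∈ univ.erase i, Q i j) *ᵥ v)) ≤
      ((∑ i, ∑ j ∈ univ.erase i, Q i j) *ᵥ v) ⬝ᵥ ((∑ i, ∑ j ∈ univ.erase i, Q i j) *ᵥ v) := by
  classical
  set s : Finset (ι × ι) := univ.filter (fun p : ι × ι => p.1 < p.2) with hs
  set blk : ι × ι × ι → Finset (ι × ι) :=
    fun t => {(t.1, t.2.1), (t.1, t.2.2), (t.2.1, t.2.2)} with hblk
  set 𝒯 : Finset (Finset (ι × ι)) :=
    (univ.filter (fun t : ι × ι × ι => t.1 < t.2.1 ∧ t.2.1 < t.2.2)).image blk with h𝒯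
  have mk : ∀ i j k : ι, i < j → j < k → blk (i, j, k) ∈ 𝒯 := fun i j k h1 h2 =>
    Finset.mem_image.mpr ⟨(i, j, k), Finset.mem_filter.mpr ⟨mem_univ _, h1, h2⟩, rfl⟩
  have key := squaring (dotForm n) dotForm_symm dotForm_nonneg s
    (fun p => (Q p.1 p.2).mulVecLin) ?_ ?_ 𝒯 ?_ ?_ ?_ ?_ v
  · -- conclusion
    simp only [Matrix.mulVecLin_apply, dotForm_eq_dotProduct] at key
    rw [← Matrix.sum_mulVec] at key
    rw [sum_offdiag_eq Q hsymm]
    rw [Matrix.add_mulVec]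
    simp only [dotProduct_add, add_dotProduct]
    linarith
  · -- symmetric
    intro b _ f g
    simp only [Matrix.mulVecLin_apply, dotForm_eq_dotProduct]
    exact mulVec_symm_dot _ (hT _ _) f g
  · -- idempotent
    intro b _ f
    simp only [Matrix.mulVecLin_apply, Matrix.mulVec_mulVec, hidem]
  · -- blocks inside s
    intro T hT'
    rw [h𝒯, Finset.mem_image] at hT'
    obtain ⟨t, ht, rfl⟩ := hT'
    rw [Finset.mem_filter] at ht
    intro p hp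
    simp only [hblk, Finset.mem_insert, Finset.mem_singleton] at hp
    rw [hs, Finset.mem_filter]
    rcases hp with rfl | rfl | rfl
    · exact ⟨mem_univ _, ht.2.1⟩
    · exact ⟨mem_univ _, lt_trans ht.2.1 ht.2.2⟩
    · exact ⟨mem_univ _, ht.2.2⟩
  · -- uniqueness
    intro T hT1 T' hT1' b hb b' hb' hne hbT' hb'T'
    rw [h𝒯, Finset.mem_image] at hT1 hT1'
    obtain ⟨⟨i, j, k⟩, ht, rfl⟩ := hT1
    obtain ⟨⟨i', j', k'⟩, ht', rfl⟩ := hT1'
    rw [Finset.mem_filter] at ht ht'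
    obtain ⟨-, hij, hjk⟩ := ht
    obtain ⟨-, hij', hjk'⟩ := ht'
    simp only at hij hjk hij' hjk'
    obtain ⟨b1, b2⟩ := b
    obtain ⟨c1, c2⟩ := b'
    simp only [hblk, Finset.mem_insert, Finset.mem_singleton, Prod.mk.injEq] at hb hb' hbT' hb'T'
    have hne' : ¬ (b1 = c1 ∧ b2 = c2) := fun h => hne (by rw [h.1, h.2])
    obtain ⟨rfl, rfl, rfl⟩ := blk_uniq i j k i' j' k' hij hjk hij' hjk' b1 b2 c1 c2 hne' hb hb' hbT' hb'T'
    rfl
  · -- commutation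
    intro b hb b' hb' hne hno f
    obtain ⟨b1, b2⟩ := b
    obtain ⟨c1, c2⟩ := b'
    rw [hs, Finset.mem_filter] at hb hb'
    have hb12 : b1 < b2 := hb.2
    have hc12 : c1 < c2 := hb'.2
    have d1 : b1 ≠ c1 := by
      rintro rfl
      have h2 : b2 ≠ c2 := fun h => hne (by rw [h])
      rcases lt_or_gt_of_ne h2 with h | h
      · exact hno _ (mk b1 b2 c2 hb12 h) ⟨by simp [hblk], by simp [hblk]⟩
      · exact hno _ (mk b1 c2 b2 hc12 h) ⟨by simp [hblk], by simp [hblk]⟩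
    have d2 : b1 ≠ c2 := by
      rintro rfl
      exact hno _ (mk c1 b1 b2 hc12 hb12) ⟨by simp [hblk], by simp [hblk]⟩
    have d3 : b2 ≠ c1 := by
      rintro rfl
      exact hno _ (mk b1 b2 c2 hb12 hc12) ⟨by simp [hblk], by simp [hblk]⟩
    have d4 : b2 ≠ c2 := by
      rintro rfl
      rcases lt_or_gt_of_ne d1 with h | h
      · exact hno _ (mk b1 c1 b2 h hc12) ⟨by simp [hblk], by simp [hblk]⟩
      · exact hno _ (mk c1 b1 b2 h hb12) ⟨by simp [hblk], by simp [hblk]⟩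
    have hM := hcomm b1 b2 c1 c2 hb12.ne hc12.ne d1 d2 d3 d4
    simp only [Matrix.mulVecLin_apply, Matrix.mulVec_mulVec, hM]
  · -- block inequality
    intro T hT1 f
    rw [h𝒯, Finset.mem_image] at hT1
    obtain ⟨⟨i, j, k⟩, ht, rfl⟩ := hT1
    rw [Finset.mem_filter] at ht
    obtain ⟨-, hij, hjk⟩ := ht
    simp only at hij hjk
    have hik : i < k := lt_trans hij hjk
    have e : ∑ b ∈ blk (i, j, k), (Q b.1 b.2).mulVecLin f = (Q i j + Q i k + Q j k) *ᵥ f := by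
      simp only [hblk]
      rw [Finset.sum_insert, Finset.sum_insert, Finset.sum_singleton]
      · simp only [Matrix.mulVecLin_apply, Matrix.add_mulVec]
        rw [add_assoc]
      · simp [hij.ne]
      · simp [hjk.ne, hij.ne]
    rw [e]
    exact htri i j k hij.ne hik.ne hjk.ne f

end CaputoA

open CaputoA in
/-- (A1) Caputo squaring lemma, matrix form. `Q i j` for `i ≠ j` are the projections. -/
theorem caputo_sq {n ι : Type*} [Fintype n] [DecidableEq n] [Fintype ι] [DecidableEq ι]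
    (Q : ι → ι → Matrix n n ℝ)
    (hsymm : ∀ i j, Q i j = Q j i)
    (hT : ∀ i j, (Q i j).transpose = Q i j)
    (hidem : ∀ i j, Q i j * Q i j = Q i j)
    (hcomm : ∀ i j k l, i ≠ j → k ≠ l → i ≠ k → i ≠ l → j ≠ k → j ≠ l →
      Q i j * Q k l = Q k l * Q i j)
    (htri : ∀ i j k, i ≠ j → i ≠ k → j ≠ k → ∀ v : n → ℝ,
      v ⬝ᵥ ((Q i j + Q i k + Q j k) *ᵥ v) ≤
        ((Q i j + Q i k + Q j k) *ᵥ v) ⬝ᵥ ((Q i j + Q i k + Q j k) *ᵥ v))
    (v : n → ℝ) :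
    2 * (v ⬝ᵥ ((∑ i, ∑ j ∈ univ.erase i, Q i j) *ᵥ v)) ≤
      ((∑ i, ∑ j ∈ univ.erase i, Q i j) *ᵥ v) ⬝ᵥ ((∑ i, ∑ j ∈ univ.erase i, Q i j) *ᵥ v) := by
  let inst : LinearOrder ι :=
    LinearOrder.lift' (Fintype.equivFin ι) (Fintype.equivFin ι).injective
  exact caputo_sq_ord Q hsymm hT hidem hcomm htri v

namespace CaputoA

/-- a sum of symmetric idempotent matrices is positive semidefinite -/
theorem dot_mulVec_proj_nonneg {n : Type*} [Fintype n] (M : Matrix n n ℝ)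
    (hM : M.transpose = M) (hMM : M * M = M) (v : n → ℝ) : 0 ≤ v ⬝ᵥ (M *ᵥ v) := by
  have h : v ⬝ᵥ (M *ᵥ v) = (M *ᵥ v) ⬝ᵥ (M *ᵥ v) := by
    rw [mulVec_symm_dot M hM, Matrix.mulVec_mulVec, hMM]
  rw [h]
  exact Finset.sum_nonneg (fun x _ => mul_self_nonneg _)

end CaputoA

open CaputoA in
/-- (A2) a symmetric positive semidefinite matrix with `A^2 ≥ c A` dominates `c` on the
orthogonal complement of its kernel. (The hypothesis `hpos` is needed: `A = -1`.) -/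
theorem poincare_of_sq {n : Type*} [Fintype n] [DecidableEq n] (A : Matrix n n ℝ)
    (hA : A.transpose = A) (c : ℝ) (hc : 0 < c)
    (hpos : ∀ v : n → ℝ, 0 ≤ v ⬝ᵥ (A *ᵥ v))
    (hsq : ∀ v : n → ℝ, c * (v ⬝ᵥ (A *ᵥ v)) ≤ (A *ᵥ v) ⬝ᵥ (A *ᵥ v))
    (f : n → ℝ) (hf : ∀ g : n → ℝ, A *ᵥ g = 0 → f ⬝ᵥ g = 0) :
    c * (f ⬝ᵥ f) ≤ f ⬝ᵥ (A *ᵥ f) := by
  have hsym : ∀ u w : n → ℝ, dotForm n (A.mulVecLin u) w = dotForm n u (A.mulVecLin w) :=
    fun u w => mulVec_symm_dot A hA u w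
  obtain ⟨g, hg⟩ := mem_range_of_orth (dotForm n) dotForm_symm dotForm_eq_zero A.mulVecLin hsym f
    (fun g hg => hf g hg)
  have key := ge_c_on_range (dotForm n) dotForm_symm dotForm_nonneg A.mulVecLin hsym
    (fun u => hpos u) c hc (fun u => hsq u) g
  rw [hg] at key
  exact key

end KTV
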